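import Vale.Agent.P224.R2.H797.T21.Rows
import Vale.Agent.P224.R2.H797.LawE
import Vale.Agent.P224.R2.H797.LawM

/-!
Certificate in dimension 21: the law is negative for lengths of the mean normal between `1/50` and `1/8`.
-/

namespace Vale.Agent.P224.R2.H797.T21

open Vale.Agent.P224.UE Vale.Agent.P224.POS Vale.Agent.P224.PO Vale.Agent.P224.R2.H178
  Vale.Agent.P224.R2.H797

/-- the value of the rows -/
noncomputable def qv : PE := PE.add (PE.add (PE.c (-1641613024)) (PE.mul (PE.c (357264688)) (PE.v 0)))
  (PE.mul (PE.c (-44518368)) (PE.v 1))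

set_option maxRecDepth 100000 in
lemma qv_chk : chk [] (PE.sub (lvU 21 rows) qv) = true := by decide +kernel

lemma hval_rows (ν ρ : ℝ) : hvalU 21 (rlH 281474976710656 rows) ν ρ
    = (-(51300407 / 193514046488576)) + (2029913 / 35184372088832) * ν + (-(1391199 / 193514046488576)) * ρ := by
  rw [hvalU_eq (by norm_num) qv_chk]
  unfold qv
  simp only [PE.ev_add, PE.ev_mul, PE.ev_c, PE.ev_v]
  have e0 : ([ν, ρ] : List ℝ).getD 0 0 = ν := rfl
  have e1 : ([ν, ρ] : List ℝ).getD 1 0 = ρ := rfl
  rw [e0, e1]
  push_cast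
  ring

lemma kh : (52944781057 / 20000) * (143116 / 100000) ≤ KH 21 := by
  have hb := (div_pi_bounds (N := (549755813888 / 46189)) (by norm_num)).1
  rw [KHn_21]
  refine le_trans ?_ hb
  norm_num

/-- **The law is negative.** -/
theorem hneg {ν ρ : ℝ} (h1 : (1 / 50) ≤ ν) (h2 : ν ≤ (1 / 8)) (hr1 : ν ^ 2 ≤ ρ) (hr2 : ρ ≤ 1) :
    hvalU 21 (rlH 281474976710656 rows) ν ρ ≤ 0 ∧
      ((197697473451952 / 281474976710656) + (0 / 281474976710656) + (-60896702542544 / 281474976710656) * ν + (97520462310728 / 281474976710656) * ν ^ 2 + ((5356690347160 / 281474976710656) + (0 / 281474976710656) * ν) * ρ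
        + ((2305316682656 / 281474976710656) + (0 / 281474976710656)) * ν ^ 2 + (0 / 281474976710656) * ((1 - ρ) / ((21 : ℕ) + 1)))
        + (52944781057 / 20000) * hvalU 21 (rlH 281474976710656 rows) ν ρ < 0 := by
  rw [hval_rows]
  have ha := sub_nonneg.2 h1
  have hb := sub_nonneg.2 h2
  have hab := mul_nonneg ha hb
  constructor
  · have e1 : (-(51300407 / 193514046488576)) + (2029913 / 35184372088832) * ν + (-(1391199 / 193514046488576)) * ν ^ 2 < 0 := by
      nlinarith
    have e2 : (-(51300407 / 193514046488576)) + (2029913 / 35184372088832) * ν + (-(1391199 / 193514046488576)) * 1 < 0 := by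
      linarith
    exact (aff_neg e1 e2 hr1 hr2).le
  · have e1 : ((2251443214349801 / 3870280929771520000) + (-(44768457006601959 / 703687441776640000)) * ν + (12478222374173 / 35184372088832) * ν ^ 2) + ((-(2234188267343 / 3870280929771520000)) + 0 * ν) * ν ^ 2 < 0 := by
      nlinarith [mul_nonneg hab ha, mul_nonneg hab hb]
    have e2 : ((2251443214349801 / 3870280929771520000) + (-(44768457006601959 / 703687441776640000)) * ν + (12478222374173 / 35184372088832) * ν ^ 2) + ((-(2234188267343 / 3870280929771520000)) + 0 * ν) * 1 < 0 := by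
      nlinarith
    have e3 := aff_neg e1 e2 hr1 hr2
    refine lt_of_eq_of_lt ?_ e3
    push_cast
    ring

end Vale.Agent.P224.R2.H797.T21
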